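import Vale.Agent.P323.Z.Final

/-!
There is a model of ZF in which the Partition Principle holds and the Axiom of Choice fails.
-/

theorem Vale.Agent.Results.P323.PPNotAC.result :
    ∃ (M : Type) (E : M → M → Prop),
      Vale.Agent.P323.Z.IsZFModel E ∧ Vale.Agent.P323.Z.PP E ∧ ¬ Vale.Agent.P323.Z.AC E :=
  Vale.Agent.P323.Z.exists_model_pp_not_ac
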